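import Vale.Agent.P264.Final

open Vale.Agent.P264

/-- On complex projective 7-space there is a smooth Kaehler form in the Fubini-Study class from
which no smooth solution of the Calabi flow exists for all times `t ≥ 0`. -/
theorem Vale.Agent.Results.P264.A_full.result :
    ∃ ψ0 : (Fin 8 → ℂ) → ℝ, IsKahlerPot ψ0 ∧
      ∀ (κ : ℝ) (φ : ℝ → (Fin 8 → ℂ) → ℝ), ¬ IsCalabiFlow ψ0 κ φ :=
  main_full
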