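import Vale.Agent.P264.A.Main
import Vale.Agent.P264.U.Main

open Vale.Agent.P264

/-- A global Calabi flow on projective 7-space keeps the `U(7)` symmetry of its initial metric. -/
theorem Vale.Agent.Results.P264.B_sym.result (ψ0 : (Fin 8 → ℂ) → ℝ) (κ : ℝ)
    (φ : ℝ → (Fin 8 → ℂ) → ℝ) (h0 : IsKahlerPot ψ0) (hi : Inv ψ0) (h : IsCalabiFlow ψ0 κ φ) :
    ∀ t, 0 ≤ t → Inv (φ t) :=
  blockU' ψ0 κ φ h0 hi h
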