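import Vale.Agent.P264.C.Main

open Vale.Agent.P264

/-- Given a certificate, the reduced one-dimensional flow has an admissible polynomial initial
datum from which no global solution starts. -/
theorem Vale.Agent.Results.P264.C_cond.result (K : Cert) :
    ∃ c : Polynomial ℝ, InitOK c ∧ ∀ S : Sol, ¬ Starts S c :=
  blockC' K
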