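import Vale.Agent.P264.B.Main

open Vale.Agent.P264

/-- An approximate self-similar blow-up profile of the reduced flow. -/
theorem Vale.Agent.Results.P264.D_prof.result :
    ∃ (W : ℝ → ℕ → ℝ) (Bk : Finset ℝ),
      (∀ k ξ, k ≤ 2 → 0 ≤ ξ → HasDerivAt (fun y => W y k) (W ξ (k + 1)) ξ) ∧
      (∀ ξ, 0 < ξ → ξ ∉ Bk → HasDerivAt (fun y => W y 3) (W ξ 4) ξ) ∧
      (∀ ξ, 0 ≤ ξ → 1 / 20 ≤ 1 - ξ * W ξ 0 ∧ 1 - ξ * W ξ 0 ≤ 1) ∧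
      (∃ x, 0 < x ∧ 1 - x * W x 0 ≤ 1 / 2) ∧
      ∀ ξ, 0 < ξ → |-(1 - ξ * W ξ 0) ^ 2 * (ξ ^ 2 * W ξ 4 + 20 * ξ * W ξ 3 + 90 * W ξ 2)
        - (W ξ 0 + ξ * W ξ 1) / 2| * (1 + ξ) ^ 3 ≤ 1 / 10 ^ 130 := by
  obtain ⟨K⟩ := blockB'
  exact ⟨K.W, K.Bk, K.dW, K.dW3, K.bY, ⟨K.xs, K.hxs, K.bYs⟩, K.res⟩
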